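import Mathlib

/-!
# P082: alternating Hochschild 2-cocycles of semiprime rings
-/

namespace Vale.Agent.P082

variable {R : Type*} [Ring R]

section Basic

variable (f : R → R → R)
  (hz1 : ∀ x x' y, f (x + x') y = f x y + f x' y)
  (hz2 : ∀ x y y', f x (y + y') = f x y + f x y')
  (hc : ∀ x y z, x * f y z - f (x * y) z + f x (y * z) - f x y * z = 0)
  (ha : ∀ x, f x x = 0)
  (h2 : ∀ x : R, x + x = 0 → x = 0)

include hz1 hz2 ha in
theorem skew (x y : R) : f y x = - f x y := by
  have h := ha (x + y)
  rw [hz1, hz2, hz2, ha, ha] at h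
  have h' : f x y + f y x = 0 := by simpa using h
  exact (neg_eq_of_add_eq_zero_right h').symm

include hz1 hz2 hc ha in
theorem two_f (x y z : R) :
    f (x * y) z + f (x * y) z = x * f y z + f y z * x - y * f z x - f z x * y
      + z * f x y - f x y * z := by
  have s1 := skew f hz1 hz2 ha (y * z) x
  have s2 := skew f hz1 hz2 ha (z * x) y
  have s3 := skew f hz1 hz2 ha (x * y) z
  have c1 := hc x y z
  have c2 := hc y z x
  have c3 := hc z x y
  rw [s1] at c1
  rw [s2] at c2
  rw [s3] at c3
  linear_combination (norm := noncomm_ring) c2 - c1 - c3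

include hz1 hz2 hc ha h2 in
theorem der (x y z : R) :
    f (x * y) z - f (y * x) z = z * f x y - f x y * z := by
  have t1 := two_f f hz1 hz2 hc ha x y z
  have t2 := two_f f hz1 hz2 hc ha y x z
  have s1 := skew f hz1 hz2 ha x z
  have s2 := skew f hz1 hz2 ha y z
  have s3 := skew f hz1 hz2 ha x y
  rw [s2, s3] at t2
  rw [s1] at t1
  rw [sub_eq_iff_eq_add]
  have := h2 (f (x * y) z - (z * f x y - f x y * z + f (y * x) z)) (by
    linear_combination (norm := noncomm_ring) t1 - t2)
  exact sub_eq_zero.mp this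

include hz1 hz2 hc ha h2 in
/-- The triple identity. -/
theorem triple (x y z : R) :
    f (x * y) z + f x y * z + (f (z * y) x + f z y * x) = 0 := by
  have d := der f hz1 hz2 hc ha h2 x y z
  have c := hc z y x
  have s1 := skew f hz1 hz2 ha (y * x) z
  have s3 := skew f hz1 hz2 ha x y
  rw [s1, s3] at c
  linear_combination (norm := noncomm_ring) d - c

include hz1 hz2 hc ha h2 in
theorem triple_self (x y : R) :
    f (x * y) x + f x y * x = 0 :=
  h2 _ (triple f hz1 hz2 hc ha h2 x y x)

include hc in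
theorem five (x y z : R) :
    f (x * (y * z * y)) x + f x (y * z * y) * x + x * (f (y * z) y + f y z * y) * x
      = f (x * y * z) (y * x) + f (x * y) z * (y * x) + f x y * (z * (y * x))
        + x * y * z * f y x := by
  have c1 := hc (x * y * z) y x
  have c2 := hc x (y * z) y
  have c3 := hc x y z
  have e1 : x * (y * z * y) = x * y * z * y := by noncomm_ring
  have e2 : x * (y * z) = x * y * z := by noncomm_ring
  rw [e1]
  rw [e2] at c2
  linear_combination (norm := noncomm_ring) c2 * x + c3 * (y * x) - c1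

include hz1 hz2 hc ha h2 in
/-- Bresar's identity for alternating cocycles. -/
theorem bresar (x y z : R) :
    f x y * z * (x * y - y * x) + (x * y - y * x) * z * f x y = 0 := by
  have a1 := five f hc x y z
  have a2 := five f hc y x z
  have t1 := triple_self f hz1 hz2 hc ha h2 x (y * z * y)
  have t2 := triple_self f hz1 hz2 hc ha h2 y (x * z * x)
  have t3 := triple_self f hz1 hz2 hc ha h2 y z
  have t4 := triple_self f hz1 hz2 hc ha h2 x z
  have t5 := triple f hz1 hz2 hc ha h2 (x * y) z (y * x)
  have s3 := skew f hz1 hz2 ha x y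
  rw [t1, t3, s3] at a1
  rw [t2, t4, s3] at a2
  linear_combination (norm := noncomm_ring) a1 + a2 + t5

end Basic

/-- In a semiprime ring without 2-torsion, `a z b + b z a = 0` for all `z` gives `a z b = 0`. -/
theorem semi (hs : ∀ c : R, (∀ w, c * w * c = 0) → c = 0)
    (h2 : ∀ x : R, x + x = 0 → x = 0) {a b : R} (h : ∀ z, a * z * b + b * z * a = 0) (z : R) :
    a * z * b = 0 := by
  apply hs
  intro w
  apply h2
  have h1 := h (w)
  have h2' := h (z * a * w)
  have h3 := h z
  have k1 : a * z * b * w * (a * z * b) = - (a * z * a * w * b * z * b) := by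
    linear_combination (norm := noncomm_ring) a * z * h1 * z * b
  have k2 : a * z * a * w * b * z * b = - (b * z * a * w * a * z * b) := by
    linear_combination (norm := noncomm_ring) h2' * z * b
  have k3 : b * z * a * w * a * z * b = - (a * z * b * w * (a * z * b)) := by
    linear_combination (norm := noncomm_ring) h3 * w * a * z * b
  rw [k2, k3] at k1
  linear_combination (norm := noncomm_ring) k1

section Main

variable (f : R → R → R)
  (hz1 : ∀ x x' y, f (x + x') y = f x y + f x' y)
  (hz2 : ∀ x y y', f x (y + y') = f x y + f x y')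
  (hc : ∀ x y z, x * f y z - f (x * y) z + f x (y * z) - f x y * z = 0)
  (ha : ∀ x, f x x = 0)
  (h2 : ∀ x : R, x + x = 0 → x = 0)
  (hs : ∀ c : R, (∀ w, c * w * c = 0) → c = 0)

include hz1 hz2 hc ha h2 hs in
theorem m1 (x y z : R) : f x y * z * (x * y - y * x) = 0 :=
  semi hs h2 (bresar f hz1 hz2 hc ha h2 x y) z

include hz1 hz2 hc ha h2 hs in
theorem m1' (x y z : R) : (x * y - y * x) * z * f x y = 0 :=
  semi hs h2 (fun w => by
    rw [add_comm]; exact bresar f hz1 hz2 hc ha h2 x y w) z

include hz1 hz2 hc ha h2 hs in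
theorem m2 (x x' y z : R) : f x y * z * (x' * y - y * x') = 0 := by
  apply hs
  intro w
  have e : f x y * z * (x' * y - y * x') = - (f x' y * z * (x * y - y * x)) := by
    have h := m1 f hz1 hz2 hc ha h2 hs (x + x') y z
    have ha1 := m1 f hz1 hz2 hc ha h2 hs x y z
    have ha2 := m1 f hz1 hz2 hc ha h2 hs x' y z
    rw [hz1] at h
    linear_combination (norm := noncomm_ring) h - ha1 - ha2
  have k := m1' f hz1 hz2 hc ha h2 hs x' y w
  calc f x y * z * (x' * y - y * x') * w * (f x y * z * (x' * y - y * x'))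
      = f x y * z * (x' * y - y * x') * w * (- (f x' y * z * (x * y - y * x))) := by
        rw [← e]
    _ = - (f x y * z * ((x' * y - y * x') * w * f x' y) * z * (x * y - y * x)) := by
        noncomm_ring
    _ = 0 := by rw [k]; simp

include hz1 hz2 hc ha h2 hs in
theorem m2' (x x' y z : R) : (x' * y - y * x') * z * f x y = 0 := by
  apply hs
  intro w
  have e : (x' * y - y * x') * z * f x y = - ((x * y - y * x) * z * f x' y) := by
    have h := m1' f hz1 hz2 hc ha h2 hs (x + x') y z
    have ha1 := m1' f hz1 hz2 hc ha h2 hs x y z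
    have ha2 := m1' f hz1 hz2 hc ha h2 hs x' y z
    rw [hz1] at h
    linear_combination (norm := noncomm_ring) h - ha1 - ha2
  have k := m1 f hz1 hz2 hc ha h2 hs x y w
  calc (x' * y - y * x') * z * f x y * w * ((x' * y - y * x') * z * f x y)
      = (x' * y - y * x') * z * f x y * w * (- ((x * y - y * x) * z * f x' y)) := by
        rw [← e]
    _ = - ((x' * y - y * x') * z * (f x y * w * (x * y - y * x)) * z * f x' y) := by
        noncomm_ring
    _ = 0 := by rw [k]; simp

include hz1 hz2 hc ha h2 hs in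
theorem m3 (x y u v z : R) : f x y * z * (u * v - v * u) = 0 := by
  apply hs
  intro w
  have e : f x y * z * (u * v - v * u) = - (f x v * z * (u * y - y * u)) := by
    have h := m2 f hz1 hz2 hc ha h2 hs x u (y + v) z
    have ha1 := m2 f hz1 hz2 hc ha h2 hs x u y z
    have ha2 := m2 f hz1 hz2 hc ha h2 hs x u v z
    rw [hz2] at h
    linear_combination (norm := noncomm_ring) h - ha1 - ha2
  have k := m2' f hz1 hz2 hc ha h2 hs x u v w
  calc f x y * z * (u * v - v * u) * w * (f x y * z * (u * v - v * u))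
      = f x y * z * (u * v - v * u) * w * (- (f x v * z * (u * y - y * u))) := by
        rw [← e]
    _ = - (f x y * z * ((u * v - v * u) * w * f x v) * z * (u * y - y * u)) := by
        noncomm_ring
    _ = 0 := by rw [k]; simp

include hz1 hz2 hc ha h2 hs in
theorem central (x y w : R) : w * f x y = f x y * w := by
  have key := m3 f hz1 hz2 hc ha h2 hs
  have e : f x y * w - w * f x y = 0 := by
    apply hs
    intro z
    have k1 := key x y (f x y) w (w * z)
    have k2 := key x y (f x y) w z
    calc (f x y * w - w * f x y) * z * (f x y * w - w * f x y)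
        = f x y * (w * z) * (f x y * w - w * f x y)
          - w * (f x y * z * (f x y * w - w * f x y)) := by noncomm_ring
      _ = 0 := by rw [k1, k2]; simp
  exact (sub_eq_zero.mp e).symm

include hz1 hz2 hc ha h2 hs in
theorem deriv (x y z : R) : f (x * y) z = x * f y z + y * f x z := by
  have t := two_f f hz1 hz2 hc ha x y z
  have s := skew f hz1 hz2 ha x z
  rw [s, ← central f hz1 hz2 hc ha h2 hs y z x, ← central f hz1 hz2 hc ha h2 hs x y z] at t
  have c3 := central f hz1 hz2 hc ha h2 hs x z y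
  have : f (x * y) z - (x * f y z + y * f x z) = 0 := by
    apply h2
    linear_combination (norm := noncomm_ring) t - c3
  exact sub_eq_zero.mp this

include hz1 hz2 hc ha h2 hs in
theorem pow_formula (u z : R) (n : ℕ) : f (u ^ (n + 1)) z = (n + 1) • (u ^ n * f u z) := by
  induction n with
  | zero => simp
  | succ n ih =>
    rw [pow_succ u (n + 1), deriv f hz1 hz2 hc ha h2 hs, ih]
    rw [mul_smul_comm, ← mul_assoc, ← pow_succ']
    rw [succ_nsmul' _ (n + 1)]

end Main

/-- The power formula modulo the kernel of a surjection. -/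
theorem abs_pow {S R : Type*} [Ring S] [Ring R] (π : S →+* R) (hsurj : Function.Surjective π)
    (b : S → S → S)
    (hcong : ∀ x x' y y', π x = π x' → π y = π y' → π (b x y) = π (b x' y'))
    (hb1 : ∀ x x' y, b (x + x') y = b x y + b x' y)
    (hb2 : ∀ x y y', b x (y + y') = b x y + b x y')
    (hc : ∀ x y z, x * b y z - b (x * y) z + b x (y * z) - b x y * z = 0)
    (ha : ∀ x, π (b x x) = 0)
    (h2 : ∀ x, π (x + x) = 0 → π x = 0)
    (hs : ∀ c, (∀ w, π (c * w * c) = 0) → π c = 0) (u z : S) (m : ℕ) :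
    π (b (u ^ (m + 1)) z - (m + 1) • (u ^ m * b u z)) = 0 := by
  choose o ho using hsurj
  let f : R → R → R := fun r s => π (b (o r) (o s))
  have fm : ∀ x y, f (π x) (π y) = π (b x y) := fun x y => hcong _ _ _ _ (ho _) (ho _)
  have key := pow_formula f ?_ ?_ ?_ ?_ ?_ ?_ (π u) (π z) m
  · rw [← map_pow, fm, fm, ← map_pow, ← map_mul, ← map_nsmul] at key
    rw [map_sub, key, sub_self]
  · intro x x' y
    obtain ⟨x, rfl⟩ : ∃ s, π s = x := ⟨o x, ho x⟩
    obtain ⟨x', rfl⟩ : ∃ s, π s = x' := ⟨o x', ho x'⟩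
    obtain ⟨y, rfl⟩ : ∃ s, π s = y := ⟨o y, ho y⟩
    rw [← map_add, fm, fm, fm, ← map_add, hb1]
  · intro x y y'
    obtain ⟨x, rfl⟩ : ∃ s, π s = x := ⟨o x, ho x⟩
    obtain ⟨y', rfl⟩ : ∃ s, π s = y' := ⟨o y', ho y'⟩
    obtain ⟨y, rfl⟩ : ∃ s, π s = y := ⟨o y, ho y⟩
    rw [← map_add, fm, fm, fm, ← map_add, hb2]
  · intro x y z
    obtain ⟨x, rfl⟩ : ∃ s, π s = x := ⟨o x, ho x⟩
    obtain ⟨y, rfl⟩ : ∃ s, π s = y := ⟨o y, ho y⟩
    obtain ⟨z, rfl⟩ : ∃ s, π s = z := ⟨o z, ho z⟩
    rw [fm, ← map_mul, ← map_mul, ← map_mul, fm, fm, fm, ← map_mul,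
      ← map_sub, ← map_add, ← map_sub, hc, map_zero]
  · intro x
    obtain ⟨x, rfl⟩ : ∃ s, π s = x := ⟨o x, ho x⟩
    rw [fm, ha]
  · intro x hx
    obtain ⟨x, rfl⟩ : ∃ s, π s = x := ⟨o x, ho x⟩
    rw [← map_add] at hx
    exact h2 _ hx
  · intro c hw
    obtain ⟨c, rfl⟩ : ∃ s, π s = c := ⟨o c, ho c⟩
    apply hs
    intro w
    have := hw (π w)
    rw [← map_mul, ← map_mul] at this
    exact this

end Vale.Agent.P082
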