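import Vale.Agent.P082.Cstar

/-!
# P082: alternating 2-cocycles with values in bimodules
-/

namespace Vale.Agent.P082

open MulOpposite

universe u v

section

variable {A : Type u} [CStarAlgebra A]

/-- The linearisation argument, abstractly. -/
theorem linear_arg (f : A → A → A)
    (hz1 : ∀ x x' y, f (x + x') y = f x y + f x' y)
    (hz2 : ∀ x y y', f x (y + y') = f x y + f x y')
    (m1 : ∀ x y z, f x y * z * (x * y - y * x) = 0)
    (m1' : ∀ x y z, (x * y - y * x) * z * f x y = 0)
    (x y u v z : A) : f x y * z * (u * v - v * u) = 0 := by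
  have m2 : ∀ x x' y z, f x y * z * (x' * y - y * x') = 0 := by
    intro x x' y z
    apply semiprime
    intro w
    have e : f x y * z * (x' * y - y * x') = - (f x' y * z * (x * y - y * x)) := by
      have h := m1 (x + x') y z
      have ha1 := m1 x y z
      have ha2 := m1 x' y z
      rw [hz1] at h
      linear_combination (norm := noncomm_ring) h - ha1 - ha2
    have k := m1' x' y w
    calc f x y * z * (x' * y - y * x') * w * (f x y * z * (x' * y - y * x'))
        = f x y * z * (x' * y - y * x') * w * (- (f x' y * z * (x * y - y * x))) := by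
          rw [← e]
      _ = - (f x y * z * ((x' * y - y * x') * w * f x' y) * z * (x * y - y * x)) := by
          noncomm_ring
      _ = 0 := by rw [k]; simp
  have m2' : ∀ x x' y z, (x' * y - y * x') * z * f x y = 0 := by
    intro x x' y z
    apply semiprime
    intro w
    have e : (x' * y - y * x') * z * f x y = - ((x * y - y * x) * z * f x' y) := by
      have h := m1' (x + x') y z
      have ha1 := m1' x y z
      have ha2 := m1' x' y z
      rw [hz1] at h
      linear_combination (norm := noncomm_ring) h - ha1 - ha2
    have k := m1 x y w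
    calc (x' * y - y * x') * z * f x y * w * ((x' * y - y * x') * z * f x y)
        = (x' * y - y * x') * z * f x y * w * (- ((x * y - y * x) * z * f x' y)) := by
          rw [← e]
      _ = - ((x' * y - y * x') * z * (f x y * w * (x * y - y * x)) * z * f x' y) := by
          noncomm_ring
      _ = 0 := by rw [k]; simp
  apply semiprime
  intro w
  have e : f x y * z * (u * v - v * u) = - (f x v * z * (u * y - y * u)) := by
    have h := m2 x u (y + v) z
    have ha1 := m2 x u y z
    have ha2 := m2 x u v z
    rw [hz2] at h
    linear_combination (norm := noncomm_ring) h - ha1 - ha2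
  have k := m2' x u v w
  calc f x y * z * (u * v - v * u) * w * (f x y * z * (u * v - v * u))
      = f x y * z * (u * v - v * u) * w * (- (f x v * z * (u * y - y * u))) := by
        rw [← e]
    _ = - (f x y * z * ((u * v - v * u) * w * f x v) * z * (u * y - y * u)) := by
        noncomm_ring
    _ = 0 := by rw [k]; simp

/-- Alternating 2-cocycles with values in a bimodule that is torsionless on the left. -/
theorem bimodule (hA : ∀ c : A, (∀ z u v, c * z * (u * v - v * u) = 0) → c = 0)
    {X : Type v} [AddCommGroup X] [Module A X] [Module Aᵐᵒᵖ X] [SMulCommClass A Aᵐᵒᵖ X]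
    (hX : ∀ ξ : X, (∀ φ : X →ₗ[A] A, φ ξ = 0) → ξ = 0)
    (F : A → A → X)
    (hz1 : ∀ x x' y, F (x + x') y = F x y + F x' y)
    (hz2 : ∀ x y y', F x (y + y') = F x y + F x y')
    (hc : ∀ x y z, x • F y z - F (x * y) z + F x (y * z) - op z • F x y = 0)
    (ha : ∀ x, F x x = 0) (x y : A) : F x y = 0 := by
  have hX2 : ∀ ξ : X, ξ + ξ = 0 → ξ = 0 := by
    intro ξ hξ
    apply hX
    intro φ
    apply two_torsion
    rw [← map_add, hξ, map_zero]
  let G : TrivSqZeroExt A X → TrivSqZeroExt A X → TrivSqZeroExt A X := fun s t => TrivSqZeroExt.inr (F s.fst t.fst)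
  have hT2 : ∀ t : TrivSqZeroExt A X, t + t = 0 → t = 0 := by
    intro t ht
    have h1 : t.fst + t.fst = 0 := by
      have := congrArg TrivSqZeroExt.fst ht
      simpa using this
    have h2 : t.snd + t.snd = 0 := by
      have := congrArg TrivSqZeroExt.snd ht
      simpa using this
    exact TrivSqZeroExt.ext (two_torsion h1) (hX2 _ h2)
  have br := bresar G
    (fun s s' t => by
      change TrivSqZeroExt.inr (F (s + s').fst t.fst)
        = TrivSqZeroExt.inr (F s.fst t.fst) + TrivSqZeroExt.inr (F s'.fst t.fst)
      rw [TrivSqZeroExt.fst_add, hz1, TrivSqZeroExt.inr_add])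
    (fun s t t' => by
      change TrivSqZeroExt.inr (F s.fst (t + t').fst)
        = TrivSqZeroExt.inr (F s.fst t.fst) + TrivSqZeroExt.inr (F s.fst t'.fst)
      rw [TrivSqZeroExt.fst_add, hz2, TrivSqZeroExt.inr_add])
    (fun s t r => by
      apply TrivSqZeroExt.ext
      · simp [G]
      · have := hc s.fst t.fst r.fst
        simpa [G] using this)
    (fun s => by
      change TrivSqZeroExt.inr (F s.fst s.fst) = 0
      rw [ha, TrivSqZeroExt.inr_zero])
    hT2
  -- the values under a left module map
  have key : ∀ (φ : X →ₗ[A] A) (x y z w : A),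
      (x * y - y * x) * z * (x * y - y * x) * w * φ (F x y) = 0 := by
    intro φ x y z w
    set ξ : TrivSqZeroExt A X := TrivSqZeroExt.inr (F x y) with hξ
    set b : TrivSqZeroExt A X := TrivSqZeroExt.inl (x * y - y * x) with hb
    have hbr : ∀ r : A, ξ * TrivSqZeroExt.inl r * b + b * TrivSqZeroExt.inl r * ξ = 0 := by
      intro r
      have := br (TrivSqZeroExt.inl x) (TrivSqZeroExt.inl y) (TrivSqZeroExt.inl r)
      simp only [G, TrivSqZeroExt.fst_inl] at this
      rw [← TrivSqZeroExt.inl_mul, ← TrivSqZeroExt.inl_mul, ← TrivSqZeroExt.inl_sub] at this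
      exact this
    have h1 := hbr w
    have h2 := hbr z
    have h3 := hbr (z * (x * y - y * x) * w)
    rw [TrivSqZeroExt.inl_mul, TrivSqZeroExt.inl_mul, ← hb] at h3
    have e : b * TrivSqZeroExt.inl z * b * TrivSqZeroExt.inl w * ξ = 0 := by
      apply hT2
      linear_combination (norm := noncomm_ring) b * (TrivSqZeroExt.inl z) * h1
        - h2 * (TrivSqZeroExt.inl w) * b + h3
    have e2 := congrArg TrivSqZeroExt.snd e
    rw [hb, hξ, ← TrivSqZeroExt.inl_mul, ← TrivSqZeroExt.inl_mul, ← TrivSqZeroExt.inl_mul,
      TrivSqZeroExt.inl_mul_inr, TrivSqZeroExt.snd_inr, TrivSqZeroExt.snd_zero] at e2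
    have e3 := congrArg φ e2
    rw [map_smul, map_zero, smul_eq_mul] at e3
    exact e3
  apply hX
  intro φ
  apply hA
  intro z u v
  refine linear_arg (fun x y => φ (F x y)) ?_ ?_ ?_ ?_ x y u v z
  · intro x x' y; simp only [hz1, map_add]
  · intro x y y'; simp only [hz2, map_add]
  · intro x y z
    apply semiprime
    intro w
    have k := key φ x y w z
    have k0 : ∀ r s : A, (x * y - y * x) * r * (x * y - y * x) * s * φ (F x y) = 0 :=
      fun r s => key φ x y r s
    -- first b r c = 0
    have k1 : ∀ r : A, (x * y - y * x) * r * φ (F x y) = 0 := by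
      intro r
      apply semiprime
      intro s
      have := k0 (r * φ (F x y) * s) r
      calc (x * y - y * x) * r * φ (F x y) * s * ((x * y - y * x) * r * φ (F x y))
          = (x * y - y * x) * (r * φ (F x y) * s) * (x * y - y * x) * r * φ (F x y) := by
            noncomm_ring
        _ = 0 := this
    calc φ (F x y) * z * (x * y - y * x) * w * (φ (F x y) * z * (x * y - y * x))
        = φ (F x y) * z * ((x * y - y * x) * w * φ (F x y)) * z * (x * y - y * x) := by
          noncomm_ring
      _ = 0 := by rw [k1]; simp
  · intro x y z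
    apply semiprime
    intro s
    have := key φ x y (z * φ (F x y) * s) z
    calc (x * y - y * x) * z * φ (F x y) * s * ((x * y - y * x) * z * φ (F x y))
        = (x * y - y * x) * (z * φ (F x y) * s) * (x * y - y * x) * z * φ (F x y) := by
          noncomm_ring
      _ = 0 := this

end

end Vale.Agent.P082
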