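import Vale.Agent.P082.Univ

/-!
# P082: from unitaries to the whole diagonal, with estimates (Cayley transform)
-/

namespace Vale.Agent.P082

open Complex

universe u

section

variable {B : Type u} [CStarAlgebra B]

theorem norm_one_le' : ‖(1 : B)‖ ≤ 1 := norm_unitary_le (one_mem _)

theorem F_le (F : B →L[ℂ] B →L[ℂ] B) (hF : ‖F‖ ≤ 1) (x y : B) : ‖F x y‖ ≤ ‖x‖ * ‖y‖ := by
  calc ‖F x y‖ ≤ ‖F‖ * ‖x‖ * ‖y‖ := F.le_opNorm₂ _ _
    _ ≤ 1 * ‖x‖ * ‖y‖ := by gcongr
    _ = ‖x‖ * ‖y‖ := by ring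

/-- The Cayley transform. -/
theorem cayley {c w : B} (hc : star c = -c) (h1 : (1 - c) * w = 1) (h2 : w * (1 - c) = 1) :
    w + w - 1 ∈ unitary B := by
  have s1 : (1 + c) * star w = 1 := by
    have := congrArg star h2
    rw [star_mul, star_sub, star_one, hc, sub_neg_eq_add] at this
    exact this
  have s2 : star w * (1 + c) = 1 := by
    have := congrArg star h1
    rw [star_mul, star_sub, star_one, hc, sub_neg_eq_add] at this
    exact this
  have e1 : star w + w = star w * w + star w * w := by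
    calc star w + w = star w * ((1 - c) * w) + (star w * (1 + c)) * w := by
          rw [h1, s2, mul_one, one_mul]
      _ = star w * w + star w * w := by noncomm_ring
  have e2 : star w + w = w * star w + w * star w := by
    calc star w + w = (w * (1 - c)) * star w + w * ((1 + c) * star w) := by
          rw [h2, s1, mul_one, one_mul]
      _ = w * star w + w * star w := by noncomm_ring
  rw [Unitary.mem_iff]
  constructor
  · rw [star_sub, star_add, star_one]
    linear_combination (norm := noncomm_ring) (-2 : ℤ) • e1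
  · rw [star_sub, star_add, star_one]
    linear_combination (norm := noncomm_ring) (-2 : ℤ) • e2

variable (F : B →L[ℂ] B →L[ℂ] B) (hF : ‖F‖ ≤ 1)
  (hcoc : ∀ x y z, x * F y z - F (x * y) z + F x (y * z) - F x y * z = 0)
  (η : ℝ) (hη : ∀ u ∈ unitary B, ‖F u u‖ ≤ η)

include hF hcoc hη in
theorem sa_bound (a : B) (ha : IsSelfAdjoint a) (ha1 : ‖a‖ ≤ 1) (t : ℝ) (ht : 0 < t)
    (ht2 : t ≤ 1 / 2) : ‖F a a‖ ≤ 2 * η / t ^ 2 + 6 * t := by
  have hη0 : 0 ≤ η := (norm_nonneg _).trans (hη 1 (one_mem _))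
  set c : B := (I * (t : ℂ)) • a with hcd
  have hcn : ‖c‖ ≤ t := by
    rw [hcd, norm_smul, norm_mul, Complex.norm_I, one_mul, Complex.norm_real,
      Real.norm_of_nonneg ht.le]
    nlinarith
  have hcs : star c = -c := by
    rw [hcd, star_smul, ha.star_eq]
    have : star (I * (t : ℂ)) = -(I * t) := by
      rw [star_mul']
      simp
    rw [this, neg_smul]
  have hlt : ‖c‖ < 1 := by linarith
  obtain ⟨w, h1, h2⟩ : ∃ w : B, (1 - c) * w = 1 ∧ w * (1 - c) = 1 :=
    ⟨((Units.oneSub c hlt)⁻¹).val, (Units.oneSub c hlt).mul_inv, (Units.oneSub c hlt).inv_mul⟩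
  have hv := cayley hcs h1 h2
  have hw1 : w = 1 + c * w := by
    linear_combination (norm := noncomm_ring) h1
  have hwn : ‖w‖ ≤ 2 := by
    have : ‖w‖ ≤ ‖(1 : B)‖ + ‖c‖ * ‖w‖ := by
      calc ‖w‖ = ‖1 + c * w‖ := by rw [← hw1]
        _ ≤ ‖(1 : B)‖ + ‖c * w‖ := norm_add_le _ _
        _ ≤ _ := by gcongr; exact norm_mul_le _ _
    have h1' := norm_one_le' (B := B)
    have h3 : ‖c‖ * ‖w‖ ≤ 1 / 2 * ‖w‖ := by
      gcongr
      linarith
    linarith
  set b : B := a * w with hb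
  have hbn : ‖b‖ ≤ 2 := by
    calc ‖b‖ ≤ ‖a‖ * ‖w‖ := norm_mul_le _ _
      _ ≤ 1 * 2 := by gcongr
      _ = 2 := by ring
  have hcw : c * w = (I * (t : ℂ)) • b := by rw [hcd, hb, smul_mul_assoc]
  have hvv : w + w - 1 = 1 + (2 * (I * (t : ℂ))) • b := by
    rw [mul_smul, ← hcw, two_smul]
    linear_combination (norm := noncomm_ring) (2 : ℤ) • hw1
  have hab : a - b = -(a * (c * w)) := by
    rw [hb]
    linear_combination (norm := noncomm_ring) - a * hw1
  have habn : ‖a - b‖ ≤ 2 * t := by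
    rw [hab, norm_neg]
    calc ‖a * (c * w)‖ ≤ ‖a‖ * (‖c‖ * ‖w‖) :=
          (norm_mul_le _ _).trans (mul_le_mul_of_nonneg_left (norm_mul_le _ _) (norm_nonneg _))
      _ ≤ 1 * (t * 2) := by gcongr
      _ = 2 * t := by ring
  have f1 : F 1 b = F 1 1 * b := by
    have := hcoc 1 1 b
    simp only [one_mul] at this
    linear_combination (norm := noncomm_ring) this
  have f2 : F b 1 = b * F 1 1 := by
    have := hcoc b 1 1
    simp only [mul_one] at this
    linear_combination (norm := noncomm_ring) - this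
  have ex : F (w + w - 1) (w + w - 1)
      = F 1 1 + (2 * (I * (t : ℂ))) • (F 1 b + F b 1) - ((4 * t ^ 2 : ℝ) : ℂ) • F b b := by
    rw [hvv]
    simp only [map_add, map_smul, add_apply, smul_apply, smul_add, smul_smul]
    have : (2 * (I * (t : ℂ))) * (2 * (I * (t : ℂ))) = - ((4 * t ^ 2 : ℝ) : ℂ) := by
      push_cast
      linear_combination (4 * (t : ℂ) ^ 2) * I_mul_I
    rw [this, neg_smul]
    abel
  have hFbb : 4 * t ^ 2 * ‖F b b‖ ≤ 6 * η := by
    have e : ((4 * t ^ 2 : ℝ) : ℂ) • F b b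
        = F 1 1 + (2 * (I * (t : ℂ))) • (F 1 b + F b 1) - F (w + w - 1) (w + w - 1) := by
      rw [ex]; abel
    have n1 : ‖((4 * t ^ 2 : ℝ) : ℂ) • F b b‖ = 4 * t ^ 2 * ‖F b b‖ := by
      rw [norm_smul, Complex.norm_real, Real.norm_of_nonneg (by positivity)]
    rw [← n1, e]
    have n2 : ‖F 1 b + F b 1‖ ≤ 4 * η := by
      rw [f1, f2]
      have h11 := hη 1 (one_mem _)
      calc ‖F 1 1 * b + b * F 1 1‖ ≤ ‖F 1 1‖ * ‖b‖ + ‖b‖ * ‖F 1 1‖ :=
            (norm_add_le _ _).trans (add_le_add (norm_mul_le _ _) (norm_mul_le _ _))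
        _ ≤ η * 2 + 2 * η := by gcongr
        _ = 4 * η := by ring
    have n3 : ‖(2 * (I * (t : ℂ))) • (F 1 b + F b 1)‖ ≤ 4 * η := by
      rw [norm_smul, norm_mul, norm_mul, Complex.norm_I, one_mul, Complex.norm_real,
        Real.norm_of_nonneg ht.le, Complex.norm_ofNat]
      calc 2 * t * ‖F 1 b + F b 1‖ ≤ 1 * (4 * η) := by
            gcongr
            linarith
        _ = 4 * η := by ring
    calc ‖F 1 1 + (2 * (I * (t : ℂ))) • (F 1 b + F b 1) - F (w + w - 1) (w + w - 1)‖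
        ≤ ‖F 1 1‖ + ‖(2 * (I * (t : ℂ))) • (F 1 b + F b 1)‖ + ‖F (w + w - 1) (w + w - 1)‖ :=
          (norm_sub_le _ _).trans (add_le_add (norm_add_le _ _) le_rfl)
      _ ≤ η + 4 * η + η := by
          gcongr
          · exact hη 1 (one_mem _)
          · exact hη _ hv
      _ = 6 * η := by ring
  have hFbb' : ‖F b b‖ ≤ 2 * η / t ^ 2 := by
    rw [le_div_iff₀ (by positivity)]
    nlinarith
  have es : F a a = F b b + F (a - b) a + F b (a - b) := by
    simp only [map_sub, sub_apply]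
    abel
  rw [es]
  calc ‖F b b + F (a - b) a + F b (a - b)‖
      ≤ ‖F b b‖ + ‖F (a - b) a‖ + ‖F b (a - b)‖ := norm_add₃_le
    _ ≤ 2 * η / t ^ 2 + 2 * t * 1 + 2 * (2 * t) := by
        refine add_le_add (add_le_add hFbb' ?_) ?_
        · exact (F_le F hF _ _).trans (mul_le_mul habn ha1 (norm_nonneg _) (by positivity))
        · exact (F_le F hF _ _).trans (mul_le_mul hbn habn (norm_nonneg _) (by norm_num))
    _ = 2 * η / t ^ 2 + 6 * t := by ring

/-- From self-adjoint elements of the unit ball to the whole diagonal. -/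
theorem diag_bound (F : B →L[ℂ] B →L[ℂ] B) (δ : ℝ)
    (hδ : ∀ a : B, IsSelfAdjoint a → ‖a‖ ≤ 1 → ‖F a a‖ ≤ δ) (x : B) :
    ‖F x x‖ ≤ 8 * δ * ‖x‖ ^ 2 := by
  have sa : ∀ a : B, IsSelfAdjoint a → ∀ r : ℝ, ‖a‖ ≤ r → ‖F a a‖ ≤ δ * r ^ 2 := by
    intro a ha r hr
    rcases (norm_nonneg a |>.trans hr).eq_or_lt with h | h
    · have : a = 0 := norm_le_zero_iff.mp (by rw [h]; exact hr)
      rw [this, ← h]; simp
    · have h1 := hδ (r⁻¹ • a) (by rw [IsSelfAdjoint, star_smul, ha.star_eq]; simp) (by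
        rw [norm_smul, norm_inv, Real.norm_of_nonneg h.le, inv_mul_le_iff₀ h, mul_one]
        exact hr)
      have e : F (r⁻¹ • a) (r⁻¹ • a) = (((r⁻¹) ^ 2 : ℝ) : ℂ) • F a a := by
        rw [← Complex.coe_smul r⁻¹ a]
        simp only [map_smul, smul_apply, smul_smul]
        congr 1
        push_cast
        ring
      rw [e, norm_smul, Complex.norm_real, Real.norm_of_nonneg (by positivity), inv_pow,
        inv_mul_le_iff₀ (by positivity)] at h1
      linarith
  obtain ⟨a, b, ha, hb, han, hbn, rfl⟩ : ∃ a b : B, IsSelfAdjoint a ∧ IsSelfAdjoint b ∧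
      ‖a‖ ≤ ‖x‖ ∧ ‖b‖ ≤ ‖x‖ ∧ x = a + I • b :=
    ⟨realPart x, imaginaryPart x, (realPart x).2, (imaginaryPart x).2,
      realPart.norm_le x, imaginaryPart.norm_le x, (realPart_add_I_smul_imaginaryPart x).symm⟩
  set r := ‖a + I • b‖ with hr
  have e : F (a + I • b) (a + I • b)
      = F a a - F b b + I • (F (a + b) (a + b) - F a a - F b b) := by
    simp only [map_add, map_smul, add_apply, smul_apply, smul_add, smul_sub, smul_smul, I_mul_I,
      neg_smul, one_smul]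
    abel
  have k1 := sa a ha r han
  have k2 := sa b hb r hbn
  have k3 := sa (a + b) (ha.add hb) (r + r) ((norm_add_le _ _).trans (add_le_add han hbn))
  rw [e]
  calc ‖F a a - F b b + I • (F (a + b) (a + b) - F a a - F b b)‖
      ≤ (‖F a a‖ + ‖F b b‖) + (‖F (a + b) (a + b)‖ + ‖F a a‖ + ‖F b b‖) := by
        refine (norm_add_le _ _).trans (add_le_add (norm_sub_le _ _) ?_)
        rw [norm_smul, Complex.norm_I, one_mul]
        exact (norm_sub_le _ _).trans (add_le_add (norm_sub_le _ _) le_rfl)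
    _ ≤ (δ * r ^ 2 + δ * r ^ 2) + (δ * (r + r) ^ 2 + δ * r ^ 2 + δ * r ^ 2) := by
        gcongr
    _ = 8 * δ * r ^ 2 := by ring

end

/-- The universal estimate with unitaries. -/
theorem universal_unitary : ∃ C : ℝ, 0 < C ∧
    ∀ (B : Type u) [CStarAlgebra B] (f : B →L[ℂ] B →L[ℂ] B),
    (∀ x y z, x * f y z - f (x * y) z + f x (y * z) - f x y * z = 0) →
    ∀ ε : ℝ, (∀ u ∈ unitary B, ‖f u u‖ ≤ ε) → ‖f‖ ≤ C * ε := by
  by_contra hcon
  push Not at hcon
  have h : ∀ n : ℕ, ∃ (B : Type u) (_ : CStarAlgebra B) (f : B →L[ℂ] B →L[ℂ] B),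
      (∀ x y z, x * f y z - f (x * y) z + f x (y * z) - f x y * z = 0) ∧
      ∃ ε : ℝ, (∀ u ∈ unitary B, ‖f u u‖ ≤ ε) ∧ ((n : ℝ) + 1) ^ 3 * ε < ‖f‖ := by
    intro n
    obtain ⟨B, inst, f, hc, ε, hd, hlt⟩ := hcon ((n + 1) ^ 3) (by positivity)
    exact ⟨B, inst, f, hc, ε, hd, hlt⟩
  choose B inst f hc ε hd hlt using h
  have h0 : ∀ n, 0 ≤ ε n := fun n => (norm_nonneg _).trans (hd n 1 (one_mem _))
  have hpos : ∀ n, 0 < ‖f n‖ := fun n =>
    lt_of_le_of_lt (mul_nonneg (by positivity) (h0 n)) (hlt n)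
  have hcoc : ∀ n, ∀ x y z : B n, x * (((‖f n‖⁻¹ : ℝ) : ℂ) • f n) y z
      - (((‖f n‖⁻¹ : ℝ) : ℂ) • f n) (x * y) z
      + (((‖f n‖⁻¹ : ℝ) : ℂ) • f n) x (y * z) - (((‖f n‖⁻¹ : ℝ) : ℂ) • f n) x y * z = 0 := by
    intro n x y z
    have := hc n x y z
    have e : x * (((‖f n‖⁻¹ : ℝ) : ℂ) • f n) y z - (((‖f n‖⁻¹ : ℝ) : ℂ) • f n) (x * y) z
        + (((‖f n‖⁻¹ : ℝ) : ℂ) • f n) x (y * z) - (((‖f n‖⁻¹ : ℝ) : ℂ) • f n) x y * z
        = ((‖f n‖⁻¹ : ℝ) : ℂ) • (x * f n y z - f n (x * y) z + f n x (y * z) - f n x y * z) := by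
      simp only [smul_apply, smul_sub, smul_add, mul_smul_comm, smul_mul_assoc]
    rw [e, this, smul_zero]
  refine no_seq B (fun n => ((‖f n‖⁻¹ : ℝ) : ℂ) • f n) (fun n => norm_scale (f n) (hpos n))
    hcoc (fun n => 88 * (1 / ((n : ℝ) + 1))) ?_ ?_
  · have := tendsto_one_div_add_atTop_nhds_zero_nat (𝕜 := ℝ).const_mul 88
    rwa [mul_zero] at this
  · intro n x
    have hn : (0 : ℝ) < (n : ℝ) + 1 := by positivity
    have key : ∀ a : B n, IsSelfAdjoint a → ‖a‖ ≤ 1 →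
        ‖(((‖f n‖⁻¹ : ℝ) : ℂ) • f n) a a‖ ≤ 11 * (1 / ((n : ℝ) + 1)) := by
      intro a ha ha1
      have hu : ∀ u ∈ unitary (B n), ‖(((‖f n‖⁻¹ : ℝ) : ℂ) • f n) u u‖
          ≤ (1 / ((n : ℝ) + 1)) ^ 3 := by
        intro u hu
        rw [norm_scale_apply (f n) (hpos n), inv_mul_le_iff₀ (hpos n), one_div, inv_pow,
          ← div_eq_mul_inv, le_div_iff₀ (by positivity), mul_comm]
        exact (mul_le_mul_of_nonneg_left (hd n u hu) (by positivity)).trans (hlt n).le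
      have hs := sa_bound _ (norm_scale (f n) (hpos n)).le (hcoc n) _ hu a ha ha1
        (1 / 2 * (1 / ((n : ℝ) + 1))) (by positivity) (by
          have : 1 / ((n : ℝ) + 1) ≤ 1 := by
            rw [div_le_one hn]; linarith [(Nat.cast_nonneg n : (0 : ℝ) ≤ n)]
          linarith)
      refine hs.trans (le_of_eq ?_)
      field_simp
      ring
    have := diag_bound _ _ key x
    refine this.trans (le_of_eq ?_)
    ring

end Vale.Agent.P082
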