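import Vale.Agent.P082.Alg

/-!
# P082: bounded 2-cocycles of C*-algebras are determined by their values `f(u, u)` at unitaries
-/

namespace Vale.Agent.P082

open Complex

variable {A : Type*} [CStarAlgebra A]

theorem two_torsion {x : A} (h : x + x = 0) : x = 0 := by
  have h' : (2 : ℂ) • x = 0 := by rw [two_smul]; exact h
  exact (smul_eq_zero.mp h').resolve_left (by norm_num)

theorem semiprime {c : A} (h : ∀ w, c * w * c = 0) : c = 0 := by
  have h1 := h (star c)
  have h2 : star (star c * c) * (star c * c) = 0 := by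
    rw [star_mul, star_star]
    calc star c * c * (star c * c) = star c * (c * star c * c) := by noncomm_ring
      _ = 0 := by rw [h1, mul_zero]
  have h3 : star c * c = 0 := CStarRing.star_mul_self_eq_zero_iff _ |>.mp h2
  exact CStarRing.star_mul_self_eq_zero_iff _ |>.mp h3

section

variable (h : A →L[ℂ] A →L[ℂ] A)
  (hc : ∀ x y z, x * h y z - h (x * y) z + h x (y * z) - h x y * z = 0)

include hc in
/-- An alternating bounded cocycle is zero. -/
theorem zero_of_diag (hd : ∀ x, h x x = 0) : h = 0 := by
  have hz1 : ∀ x x' y, h (x + x') y = h x y + h x' y := fun x x' y => by simp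
  have hz2 : ∀ x y y', h x (y + y') = h x y + h x y' := fun x y y' => by simp
  have key := m3 (fun x y => h x y) hz1 hz2 hc hd (fun x hx => two_torsion hx)
    (fun c hc => semiprime hc)
  have central : ∀ x y w, w * h x y = h x y * w := by
    intro x y w
    have e : h x y * w - w * h x y = 0 := by
      apply semiprime
      intro z
      have k1 := key x y (h x y) w (w * z)
      have k2 := key x y (h x y) w z
      calc (h x y * w - w * h x y) * z * (h x y * w - w * h x y)
          = h x y * (w * z) * (h x y * w - w * h x y)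
            - w * (h x y * z * (h x y * w - w * h x y)) := by noncomm_ring
        _ = 0 := by rw [k1, k2]; simp
    exact (sub_eq_zero.mp e).symm
  have deriv : ∀ x y z, h (x * y) z = x * h y z + y * h x z := by
    intro x y z
    have t := two_f (fun x y => h x y) hz1 hz2 hc hd x y z
    have s := skew (fun x y => h x y) hz1 hz2 hd x z
    rw [s, ← central y z x, ← central x y z] at t
    have c3 := central x z y
    have : h (x * y) z - (x * h y z + y * h x z) = 0 := by
      apply two_torsion
      linear_combination (norm := noncomm_ring) t - c3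
    exact sub_eq_zero.mp this
  have pow : ∀ (u z : A) (n : ℕ), h (u ^ (n + 1)) z = (n + 1 : ℂ) • (u ^ n * h u z) := by
    intro u z n
    induction n with
    | zero => simp
    | succ n ih =>
      rw [pow_succ u (n + 1), deriv, ih]
      have e : u * ((n + 1 : ℂ) • (u ^ n * h u z)) = (n + 1 : ℂ) • (u ^ (n + 1) * h u z) := by
        rw [mul_smul_comm, ← mul_assoc, ← pow_succ']
      rw [e]
      push_cast
      rw [add_smul (n + 1 : ℂ) 1, one_smul, add_comm]
  have unit : ∀ u ∈ unitary A, ∀ z, h u z = 0 := by
    intro u hu z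
    have bound : ∀ n : ℕ, (n + 1 : ℝ) * ‖h u z‖ ≤ ‖h‖ * ‖(1 : A)‖ * ‖z‖ := by
      intro n
      have hn : ∀ m : ℕ, u ^ m ∈ unitary A := fun m => pow_mem hu m
      have e1 : ‖h (u ^ (n + 1)) z‖ = (n + 1 : ℝ) * ‖h u z‖ := by
        rw [pow, norm_smul, CStarRing.norm_mem_unitary_mul _ (hn n)]
        congr 1
        have : ((n : ℂ) + 1) = ((n + 1 : ℝ) : ℂ) := by push_cast; rfl
        rw [this, Complex.norm_real, Real.norm_eq_abs, abs_of_nonneg (by positivity)]
      have e2 : ‖u ^ (n + 1)‖ = ‖(1 : A)‖ := by
        have := CStarRing.norm_mem_unitary_mul (1 : A) (hn (n + 1))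
        rwa [mul_one] at this
      rw [← e1, ← e2]
      exact h.le_opNorm₂ _ _
    by_contra hne
    have hpos : 0 < ‖h u z‖ := norm_pos_iff.mpr hne
    obtain ⟨n, hn⟩ := exists_nat_gt ((‖h‖ * ‖(1 : A)‖ * ‖z‖) / ‖h u z‖)
    rw [div_lt_iff₀ hpos] at hn
    have := bound n
    nlinarith
  have span : ∀ x, h x = 0 := by
    intro x
    have hx : x ∈ Submodule.span ℂ (unitary A : Set A) := by
      rw [CStarAlgebra.span_unitary]; trivial
    refine Submodule.span_induction (p := fun x _ => h x = 0) ?_ ?_ ?_ ?_ hx
    · intro u hu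
      ext z
      simpa using unit u hu z
    · simp
    · intro a b _ _ ha hb
      rw [map_add, ha, hb, add_zero]
    · intro a b _ hb
      rw [map_smul, hb]
      ext z
      simp
  ext x : 1
  rw [span x]
  rfl

include hc in
/-- A bounded cocycle that vanishes at the pairs `(e^(ita), e^(irta))` is alternating. -/
theorem diag_of_exp (r : ℝ) (hr0 : r ≠ 0) (h11 : h 1 1 = 0)
    (hexp : ∀ a : A, IsSelfAdjoint a → ∀ t : ℝ,
      h (NormedSpace.exp (t • (I • a))) (NormedSpace.exp (t • (r • (I • a)))) = 0)
    (x : A) : h x x = 0 := by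
  have hl : ∀ x, h 1 x = 0 := by
    intro x
    have := hc 1 1 x
    rw [h11] at this
    simpa using this
  have hr : ∀ x, h x 1 = 0 := by
    intro x
    have := hc x 1 1
    rw [h11] at this
    simpa using this
  have hsa : ∀ a : A, IsSelfAdjoint a → h a a = 0 := by
    intro a ha
    set c : A := I • a with hcdef
    let U : ℝ → A := fun t => NormedSpace.exp (t • c)
    let W : ℝ → A := fun t => NormedSpace.exp (t • (r • c))
    have dU : ∀ t, HasDerivAt U (U t * c) t := fun t => hasDerivAt_exp_smul_const c t
    have dUc : ∀ t, HasDerivAt (fun t => U t * c) (U t * c * c) t := fun t =>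
      (dU t).mul_const c
    have dW : ∀ t, HasDerivAt W (W t * (r • c)) t := fun t =>
      hasDerivAt_exp_smul_const (r • c) t
    have dWc : ∀ t, HasDerivAt (fun t => W t * (r • c)) (W t * (r • c) * (r • c)) t := fun t =>
      (dW t).mul_const (r • c)
    have bil : ∀ (V W : ℝ → A) (V' W' : A) (t : ℝ), HasDerivAt V V' t → HasDerivAt W W' t →
        HasDerivAt (fun t => h (V t) (W t)) (h V' (W t) + h (V t) W') t := by
      intro V W V' W' t hV hW
      let B : A →L[ℝ] A →L[ℝ] A :=
        (ContinuousLinearMap.restrictScalarsL ℂ A A ℝ ℝ).comp (h.restrictScalars ℝ)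
      have h1 : HasDerivAt (fun t => B (V t)) (B V') t := B.hasFDerivAt.comp_hasDerivAt t hV
      exact h1.clm_apply hW
    have first : ∀ t, h (U t * c) (W t) + h (U t) (W t * (r • c)) = 0 := by
      intro t
      have d := bil U W _ _ t (dU t) (dW t)
      have z : (fun t => h (U t) (W t)) = fun _ => 0 := by
        funext s
        exact hexp a ha s
      rw [z] at d
      exact d.unique (hasDerivAt_const t 0)
    have second : (h (U 0 * c * c) (W 0) + h (U 0 * c) (W 0 * (r • c)))
        + (h (U 0 * c) (W 0 * (r • c)) + h (U 0) (W 0 * (r • c) * (r • c))) = 0 := by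
      have d1 := bil (fun t => U t * c) W _ _ 0 (dUc 0) (dW 0)
      have d2 := bil U (fun t => W t * (r • c)) _ _ 0 (dU 0) (dWc 0)
      have d := d1.add d2
      have z : ((fun t => h (U t * c) (W t)) + fun t => h (U t) (W t * (r • c))) = fun _ => 0 := by
        funext s
        exact first s
      rw [z] at d
      exact d.unique (hasDerivAt_const 0 0)
    have U0 : U 0 = 1 := by
      simp [U]
    have W0 : W 0 = 1 := by
      simp [W]
    rw [U0, W0, one_mul, one_mul, hl, hr, zero_add, add_zero] at second
    have hcc := two_torsion second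
    have hre : (r • c : A) = (r : ℂ) • c := (Complex.coe_smul r c).symm
    rw [hre, map_smul] at hcc
    have hcc' : h c c = 0 :=
      (smul_eq_zero.mp hcc).resolve_left (by exact_mod_cast hr0)
    rw [hcdef, map_smul, map_smul, smul_apply, smul_smul, I_mul_I] at hcc'
    simpa using hcc'
  -- polarise
  have pol : ∀ a b : A, IsSelfAdjoint a → IsSelfAdjoint b → h a b + h b a = 0 := by
    intro a b ha hb
    have := hsa (a + b) (ha.add hb)
    simp only [map_add, add_apply, hsa a ha, hsa b hb] at this
    simpa [add_comm] using this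
  obtain ⟨a, b, ha, hb, rfl⟩ : ∃ a b : A, IsSelfAdjoint a ∧ IsSelfAdjoint b ∧ x = a + I • b :=
    ⟨realPart x, imaginaryPart x, (realPart x).2, (imaginaryPart x).2,
      (realPart_add_I_smul_imaginaryPart x).symm⟩
  have p := pol a b ha hb
  have e : h (a + I • b) (a + I • b) = h a a + I • (h a b + h b a) + (I * I) • h b b := by
    simp only [map_add, map_smul, add_apply, smul_apply,
      smul_add, smul_smul]
    abel
  rw [e, p, hsa a ha, hsa b hb]
  simp

end

section

open selfAdjoint

theorem expU_nsmul (a : selfAdjoint A) (n : ℕ) : expUnitary (n • a) = expUnitary a ^ n := by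
  induction n with
  | zero => simp
  | succ n ih =>
    rw [succ_nsmul, Commute.expUnitary_add, ih, pow_succ]
    exact (Commute.refl (a : A)).smul_left n

theorem expU_neg (a : selfAdjoint A) : expUnitary (-a) = (expUnitary a)⁻¹ := by
  apply eq_inv_of_mul_eq_one_left
  rw [← Commute.expUnitary_add, neg_add_cancel, expUnitary_zero]
  exact (Commute.refl (a : A)).neg_left

theorem expU_zsmul (a : selfAdjoint A) (m : ℤ) : expUnitary (m • a) = expUnitary a ^ m := by
  cases m with
  | ofNat n => simpa using expU_nsmul a n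
  | negSucc n => rw [negSucc_zsmul, zpow_negSucc, expU_neg, expU_nsmul]

end

/-- A bounded 2-cocycle that vanishes at the pairs `(u ^ m, u ^ n)`, `u` unitary, is zero. -/
theorem zero_of_unitary (h : A →L[ℂ] A →L[ℂ] A)
    (hc : ∀ x y z, x * h y z - h (x * y) z + h x (y * z) - h x y * z = 0)
    (m n : ℤ) (hm : m ≠ 0) (hn : n ≠ 0)
    (hu : ∀ u : unitary A, h ((u ^ m : unitary A) : A) ((u ^ n : unitary A) : A) = 0) :
    h = 0 := by
  apply zero_of_diag h hc
  have hm' : (m : ℝ) ≠ 0 := by exact_mod_cast hm
  have hn' : (n : ℝ) ≠ 0 := by exact_mod_cast hn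
  refine diag_of_exp h hc ((n : ℝ) / m) (div_ne_zero hn' hm') ?_ ?_
  · simpa using hu 1
  · intro a ha t
    have hb : IsSelfAdjoint ((t / m) • a) := by
      rw [IsSelfAdjoint, star_smul, ha.star_eq]; simp
    have k := hu (selfAdjoint.expUnitary ⟨(t / m) • a, hb⟩)
    rw [← expU_zsmul, ← expU_zsmul, selfAdjoint.expUnitary_coe, selfAdjoint.expUnitary_coe] at k
    have e1 : I • ((m • (⟨(t / m) • a, hb⟩ : selfAdjoint A) : selfAdjoint A) : A)
        = t • (I • a) := by
      have : ((m • (⟨(t / m) • a, hb⟩ : selfAdjoint A) : selfAdjoint A) : A)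
          = m • ((t / m) • a) := rfl
      rw [this, ← Int.cast_smul_eq_zsmul ℝ m, smul_smul, mul_div_cancel₀ _ hm', smul_comm]
    have e2 : I • ((n • (⟨(t / m) • a, hb⟩ : selfAdjoint A) : selfAdjoint A) : A)
        = t • (((n : ℝ) / m) • (I • a)) := by
      have : ((n • (⟨(t / m) • a, hb⟩ : selfAdjoint A) : selfAdjoint A) : A)
          = n • ((t / m) • a) := rfl
      rw [this, ← Int.cast_smul_eq_zsmul ℝ n, smul_smul, smul_smul, smul_comm]
      congr 1
      ring
    rw [e1, e2] at k
    exact k

end Vale.Agent.P082
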