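import Mathlib

/-!
# P082: definitions
-/

namespace Vale.Agent.P082

variable (A : Type*) [CStarAlgebra A]

/-- The bounded bilinear map `f : A × A → A` is a Hochschild 2-cocycle. -/
def IsCocycle (f : A →L[ℂ] A →L[ℂ] A) : Prop :=
  ∀ x y z, x * f y z - f (x * y) z + f x (y * z) - f x y * z = 0

/-- The Hochschild coboundary of `g`. -/
noncomputable def cob (g : A →L[ℂ] A) (x y : A) : A := x * g y - g (x * y) + g x * y

/-- `f` is the Hochschild coboundary of `g`. -/
def IsCob (f : A →L[ℂ] A →L[ℂ] A) (g : A →L[ℂ] A) : Prop := ∀ x y, f x y = cob A g x y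

/-- `f` and the coboundary of `g` agree at the pairs `(u ^ m, u ^ n)`, `u` unitary. -/
def AgreeAtUnitaries (m n : ℤ) (f : A →L[ℂ] A →L[ℂ] A) (g : A →L[ℂ] A) : Prop :=
  ∀ u : unitary A, f (u ^ m : unitary A) (u ^ n : unitary A)
    = cob A g (u ^ m : unitary A) (u ^ n : unitary A)

/-- If `f` is a cocycle and `f - dg` has norm at most `ε` at the pairs `(u, u)`, `u` unitary, then
`f - dg` has norm at most `C ε`. -/
def UnitaryBound (C : ℝ) : Prop :=
  ∀ (f : A →L[ℂ] A →L[ℂ] A) (g : A →L[ℂ] A) (ε : ℝ), IsCocycle A f →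
    (∀ u : unitary A, ‖f u u - cob A g u u‖ ≤ ε) →
      ∀ x y, ‖f x y - cob A g x y‖ ≤ C * ε * ‖x‖ * ‖y‖

/-- A bounded cocycle is the coboundary of `g` if this is so at the pairs `(u ^ m, u ^ n)`. -/
def DeterminedAtUnitaries : Prop :=
  ∀ (f : A →L[ℂ] A →L[ℂ] A) (g : A →L[ℂ] A) (m n : ℤ), IsCocycle A f → m ≠ 0 → n ≠ 0 →
    AgreeAtUnitaries A m n f g → IsCob A f g

/-- A bounded cocycle is the coboundary of a bounded map iff its values at the pairs
`(u ^ m, u ^ n)`, `u` unitary, are those of the coboundary of some bounded map. -/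
def CohomologyDetected : Prop :=
  ∀ (f : A →L[ℂ] A →L[ℂ] A) (m n : ℤ), IsCocycle A f → m ≠ 0 → n ≠ 0 →
    ((∃ g, IsCob A f g) ↔ ∃ g, AgreeAtUnitaries A m n f g)

section

variable {H : Type*} [NormedAddCommGroup H] [InnerProductSpace ℂ H] [CompleteSpace H]

instance isClosed_vN (M : VonNeumannAlgebra H) :
    IsClosed (M.toStarSubalgebra : Set (H →L[ℂ] H)) := by
  have h := M.centralizer_centralizer'
  have e : (M.toStarSubalgebra : Set (H →L[ℂ] H)) = M.carrier := rfl
  rw [e, ← h]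
  exact Set.isClosed_centralizer _

end

end Vale.Agent.P082
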