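import Vale.Agent.P082.Defs

/-!
# P082: definitions for bimodule coefficients and for degree three
-/

namespace Vale.Agent.P082

open MulOpposite

universe u

/-- Only `0` annihilates all commutators of `A`. -/
def FaithfulCommutators (A : Type u) [CStarAlgebra A] : Prop :=
  ∀ c : A, (∀ z u v, c * z * (u * v - v * u) = 0) → c = 0

/-- If only `0` annihilates all commutators, then, for every `A`-bimodule `X` whose elements are
separated by the left module maps `X → A`, every biadditive 2-cocycle `F : A × A → X` with
`F (x, x) = 0` for all `x` is zero (no boundedness). -/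
def AlternatingVanish (A : Type u) [CStarAlgebra A] : Prop :=
  FaithfulCommutators A →
    ∀ (X : Type u) [AddCommGroup X] [Module A X] [Module Aᵐᵒᵖ X] [SMulCommClass A Aᵐᵒᵖ X],
      (∀ ξ : X, (∀ φ : X →ₗ[A] A, φ ξ = 0) → ξ = 0) →
      ∀ F : A → A → X, (∀ x x' y, F (x + x') y = F x y + F x' y) →
        (∀ x y y', F x (y + y') = F x y + F x y') →
        (∀ x y z, x • F y z - F (x * y) z + F x (y * z) - op z • F x y = 0) →
        (∀ x, F x x = 0) → ∀ x y, F x y = 0

/-- The Hochschild coboundary of a 2-cochain. -/
noncomputable def cob3 (A : Type u) [CStarAlgebra A] (φ : A → A → A) (x y z : A) : A :=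
  x * φ y z - φ (x * y) z + φ x (y * z) - φ x y * z

/-- If only `0` annihilates all commutators, then a triadditive 3-cocycle `f : A × A × A → A` is
the coboundary of the biadditive `φ` if this is so at all `(x, x, z)` (no boundedness). -/
def DegreeThree (A : Type u) [CStarAlgebra A] : Prop :=
  FaithfulCommutators A →
    ∀ f : A → A → A → A, (∀ x x' y z, f (x + x') y z = f x y z + f x' y z) →
      (∀ x y y' z, f x (y + y') z = f x y z + f x y' z) →
      (∀ x y z z', f x y (z + z') = f x y z + f x y z') →
      (∀ x y z w, x * f y z w - f (x * y) z w + f x (y * z) w - f x y (z * w)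
        + f x y z * w = 0) →
      ∀ φ : A → A → A, (∀ x x' y, φ (x + x') y = φ x y + φ x' y) →
        (∀ x y y', φ x (y + y') = φ x y + φ x y') →
        (∀ x z, f x x z = cob3 A φ x x z) → ∀ x y z, f x y z = cob3 A φ x y z

/-- The von Neumann algebra `M` has no nonzero abelian direct summand: a central projection `p`
with `pM` abelian is zero. -/
def NoAbelianSummand {H : Type u} [NormedAddCommGroup H] [InnerProductSpace ℂ H] [CompleteSpace H]
    (M : VonNeumannAlgebra H) : Prop :=
  ∀ p ∈ M, IsSelfAdjoint p → p * p = p → (∀ x ∈ M, p * x = x * p) →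
    (∀ x ∈ M, ∀ y ∈ M, p * (x * y) = p * (y * x)) → p = 0

end Vale.Agent.P082
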