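import Vale.Agent.P082.Defs3

/-!
# P082: von Neumann algebras without abelian summand
-/

namespace Vale.Agent.P082

universe u

variable {H : Type u} [NormedAddCommGroup H] [InnerProductSpace ℂ H] [CompleteSpace H]

/-- The common kernel. -/
def Nk (M : VonNeumannAlgebra H) : Submodule ℂ H where
  carrier := {η | ∀ z ∈ M, ∀ u ∈ M, ∀ v ∈ M, ((u * v - v * u) * z) η = 0}
  add_mem' := by
    intro a b ha hb z hz u hu v hv
    rw [map_add, ha z hz u hu v hv, hb z hz u hu v hv, add_zero]
  zero_mem' := by
    intro z hz u hu v hv
    rw [map_zero]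
  smul_mem' := by
    intro c a ha z hz u hu v hv
    rw [map_smul, ha z hz u hu v hv, smul_zero]

theorem Nk_closed (M : VonNeumannAlgebra H) : IsClosed (Nk M : Set H) := by
  have : (Nk M : Set H) = ⋂ z ∈ M, ⋂ u ∈ M, ⋂ v ∈ M, {η | ((u * v - v * u) * z) η = 0} := by
    ext η
    simp only [Set.mem_iInter]
    rfl
  rw [this]
  refine isClosed_biInter fun z _ => isClosed_biInter fun u _ => isClosed_biInter fun v _ => ?_
  exact isClosed_eq (ContinuousLinearMap.continuous _) continuous_const

theorem proj_comm (K : Submodule ℂ H) [K.HasOrthogonalProjection] (T : H →L[ℂ] H)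
    (h1 : ∀ η ∈ K, T η ∈ K) (h2 : ∀ η ∈ K, (star T) η ∈ K) :
    K.starProjection * T = T * K.starProjection := by
  ext ξ
  change K.starProjection (T ξ) = T (K.starProjection ξ)
  refine K.eq_starProjection_of_mem_of_inner_eq_zero (h1 _ (K.starProjection_apply_mem ξ)) ?_
  intro w hw
  rw [← map_sub, ← ContinuousLinearMap.adjoint_inner_right]
  exact K.starProjection_inner_eq_zero ξ _ (h2 w hw)

theorem faithful_of_noAbelian (M : VonNeumannAlgebra H) (hM : NoAbelianSummand M) :
    FaithfulCommutators M.toStarSubalgebra := by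
  have : CompleteSpace (Nk M) := (Nk_closed M).completeSpace_coe
  set P := (Nk M).starProjection with hP
  have hstar : ∀ {x : H →L[ℂ] H}, x ∈ M → star x ∈ M := fun h => star_mem h
  have inv : ∀ m ∈ M, ∀ η ∈ Nk M, m η ∈ Nk M := by
    intro m hm η hη z hz u hu v hv
    have := hη (z * m) (mul_mem hz hm) u hu v hv
    rw [← mul_assoc] at this
    exact this
  have comM : ∀ x ∈ M, P * x = x * P := fun x hx =>
    proj_comm (Nk M) x (inv x hx) (inv (star x) (hstar hx))
  have inv' : ∀ s : H →L[ℂ] H, (∀ x ∈ M, x * s = s * x) → ∀ η ∈ Nk M, s η ∈ Nk M := by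
    intro s hs η hη z hz u hu v hv
    have e : (u * v - v * u) * z * s = s * ((u * v - v * u) * z) :=
      hs _ (mul_mem (sub_mem (mul_mem hu hv) (mul_mem hv hu)) hz)
    have : ((u * v - v * u) * z * s) η = 0 := by
      rw [e]
      change s (((u * v - v * u) * z) η) = 0
      rw [hη z hz u hu v hv, map_zero]
    exact this
  have hPM : P ∈ M := by
    have h : P ∈ Set.centralizer (Set.centralizer (M : Set (H →L[ℂ] H))) := by
      intro s hs
      have hs1 : ∀ x ∈ M, x * s = s * x := fun x hx => hs x hx
      have hs2 : ∀ x ∈ M, x * star s = star s * x := by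
        intro x hx
        have := congrArg star (hs1 (star x) (hstar hx))
        rw [star_mul, star_mul, star_star] at this
        exact this.symm
      exact (proj_comm (Nk M) s (inv' s hs1) (inv' (star s) hs2)).symm
    rw [M.centralizer_centralizer] at h
    exact h
  have h0 : P = 0 := by
    refine hM P hPM (isSelfAdjoint_starProjection _) ?_ comM ?_
    · exact (Nk M).isIdempotentElem_starProjection
    · intro x hx y hy
      have k : (x * y - y * x) * P = 0 := by
        ext ξ
        have := (Nk M).starProjection_apply_mem ξ 1 (one_mem M) x hx y hy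
        rw [mul_one] at this
        exact this
      have c : P * (x * y - y * x) = (x * y - y * x) * P :=
        comM _ (sub_mem (mul_mem hx hy) (mul_mem hy hx))
      rw [k, mul_sub, sub_eq_zero] at c
      exact c
  intro c hc
  have hcs : star (c : H →L[ℂ] H) = 0 := by
    ext η
    have hmem : (star (c : H →L[ℂ] H)) η ∈ Nk M := by
      intro z hz u hu v hv
      have h := congrArg (fun t : M.toStarSubalgebra => star (t : H →L[ℂ] H))
        (hc ⟨star z, hstar hz⟩ ⟨star v, hstar hv⟩ ⟨star u, hstar hu⟩)
      simp only [MulMemClass.coe_mul, AddSubgroupClass.coe_sub, ZeroMemClass.coe_zero, star_mul,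
        star_sub, star_star, star_zero] at h
      have h' : ((u * v - v * u) * z * star (c : H →L[ℂ] H)) η = 0 := by
        rw [mul_assoc, h]; rfl
      exact h'
    have e := (Submodule.starProjection_eq_self_iff (K := Nk M)).mpr hmem
    rw [← hP, h0] at e
    exact e.symm
  apply Subtype.ext
  have := congrArg star hcs
  rwa [star_star, star_zero] at this

end Vale.Agent.P082
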