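import Vale.Agent.P082.Cayley
import Vale.Agent.P082.Defs

/-!
# P082: main theorem
-/

namespace Vale.Agent.P082

universe u

variable {A : Type u} [CStarAlgebra A]

/-- The coboundary as a continuous bilinear map. -/
noncomputable def dgL (g : A →L[ℂ] A) : A →L[ℂ] A →L[ℂ] A :=
  ((ContinuousLinearMap.compL ℂ A A A).flip g).comp (ContinuousLinearMap.mul ℂ A)
    - ((ContinuousLinearMap.compL ℂ A A A) g).comp (ContinuousLinearMap.mul ℂ A)
    + (ContinuousLinearMap.mul ℂ A).comp g

theorem dgL_apply (g : A →L[ℂ] A) (x y : A) : dgL g x y = cob A g x y := by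
  simp [dgL, cob]

theorem sub_coc {f : A →L[ℂ] A →L[ℂ] A} (g : A →L[ℂ] A) (hc : IsCocycle A f) (x y z : A) :
    x * (f - dgL g) y z - (f - dgL g) (x * y) z + (f - dgL g) x (y * z)
      - (f - dgL g) x y * z = 0 := by
  have h := hc x y z
  simp only [sub_apply, dgL_apply, cob]
  linear_combination (norm := noncomm_ring) h

theorem determined (A : Type u) [CStarAlgebra A] : DeterminedAtUnitaries A := by
  intro f g m n hc hm hn hu x y
  have h0 : f - dgL g = 0 := by
    refine zero_of_unitary (f - dgL g) (sub_coc g hc) m n hm hn ?_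
    intro u
    have := hu u
    simp only [sub_apply, dgL_apply, this, sub_self]
  have h1 : (f - dgL g) x y = 0 := by rw [h0]; rfl
  rw [sub_apply, sub_apply, dgL_apply, sub_eq_zero] at h1
  exact h1

theorem detected (A : Type u) [CStarAlgebra A] : CohomologyDetected A := by
  intro f m n hc hm hn
  constructor
  · rintro ⟨g, hg⟩
    exact ⟨g, fun u => hg _ _⟩
  · rintro ⟨g, hg⟩
    exact ⟨g, determined A f g m n hc hm hn hg⟩

theorem bound : ∃ C : ℝ, ∀ (A : Type u) [CStarAlgebra A], UnitaryBound A C := by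
  obtain ⟨C, _, h⟩ := universal_unitary.{u}
  refine ⟨C, fun A _ f g ε hc hd x y => ?_⟩
  have hn : ‖f - dgL g‖ ≤ C * ε := by
    refine h A (f - dgL g) (sub_coc g hc) ε ?_
    intro u hu
    simp only [sub_apply, dgL_apply]
    exact hd ⟨u, hu⟩
  have e : f x y - cob A g x y = (f - dgL g) x y := by
    simp only [sub_apply, dgL_apply]
  rw [e]
  calc ‖(f - dgL g) x y‖ ≤ ‖f - dgL g‖ * ‖x‖ * ‖y‖ := (f - dgL g).le_opNorm₂ _ _
    _ ≤ C * ε * ‖x‖ * ‖y‖ := by gcongr

end Vale.Agent.P082
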