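import Vale.Agent.P082.Cstar

/-!
# P082: a universal norm estimate for bounded 2-cocycles, by a sequence algebra
-/

namespace Vale.Agent.P082

open Filter Topology

universe u

section

variable (A : ℕ → Type u) [∀ n, CStarAlgebra (A n)]

/-- Bounded sequences. -/
def S : Subring (∀ n, A n) where
  carrier := {x | ∃ C : ℝ, ∀ n, ‖x n‖ ≤ C}
  mul_mem' := by
    rintro a b ⟨C, hC⟩ ⟨D, hD⟩
    refine ⟨C * D, fun n => ?_⟩
    calc ‖a n * b n‖ ≤ ‖a n‖ * ‖b n‖ := norm_mul_le _ _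
      _ ≤ C * D := mul_le_mul (hC n) (hD n) (norm_nonneg _) ((norm_nonneg _).trans (hC n))
  one_mem' := ⟨1, fun n => by
    rcases subsingleton_or_nontrivial (A n) with h | h
    · have : ((1 : ∀ n, A n) n) = 0 := Subsingleton.elim _ _
      rw [this, norm_zero]; norm_num
    · exact (norm_one : ‖(1 : A n)‖ = 1).le⟩
  add_mem' := by
    rintro a b ⟨C, hC⟩ ⟨D, hD⟩
    exact ⟨C + D, fun n => (norm_add_le _ _).trans (add_le_add (hC n) (hD n))⟩
  zero_mem' := ⟨0, fun n => by simp⟩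
  neg_mem' := by
    rintro a ⟨C, hC⟩
    exact ⟨C, fun n => by simpa using hC n⟩

/-- Null sequences. -/
def N : Ideal (S A) where
  carrier := {x | Tendsto (fun n => ‖x.1 n‖) atTop (𝓝 0)}
  add_mem' := by
    intro a b ha hb
    have h := Tendsto.add ha hb
    rw [add_zero] at h
    exact squeeze_zero (fun n => norm_nonneg _) (fun n => norm_add_le _ _) h
  zero_mem' := by
    simp
  smul_mem' := by
    rintro ⟨c, C, hC⟩ a ha
    have h := Tendsto.const_mul C ha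
    rw [mul_zero] at h
    refine squeeze_zero (fun n => norm_nonneg _) (fun n => ?_) h
    exact (norm_mul_le _ _).trans (mul_le_mul_of_nonneg_right (hC n) (norm_nonneg _))

instance : (N A).IsTwoSided := ⟨by
    rintro a ⟨c, C, hC⟩ ha
    have h := Tendsto.mul_const C ha
    rw [zero_mul] at h
    refine squeeze_zero (fun n => norm_nonneg _) (fun n => ?_) h
    exact (norm_mul_le _ _).trans (mul_le_mul_of_nonneg_left (hC n) (norm_nonneg _))⟩

end

section

variable {A : ℕ → Type u} [∀ n, CStarAlgebra (A n)]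

theorem mem_N {x : S A} : x ∈ N A ↔ Tendsto (fun n => ‖x.1 n‖) atTop (𝓝 0) := Iff.rfl

theorem cube_le {B : Type u} [CStarAlgebra B] (c : B) : ‖c‖ ^ 3 ≤ ‖c * star c * c‖ := by
  by_cases hc : c = 0
  · simp [hc]
  have h1 : ‖(star c * c) * (star c * c)‖ = ‖c‖ ^ 4 := by
    have : ‖star (star c * c) * (star c * c)‖ = ‖star c * c‖ * ‖star c * c‖ :=
      CStarRing.norm_star_mul_self
    rw [star_mul, star_star] at this
    rw [this, CStarRing.norm_star_mul_self]
    ring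
  have h2 : ‖(star c * c) * (star c * c)‖ ≤ ‖c‖ * ‖c * star c * c‖ := by
    calc ‖(star c * c) * (star c * c)‖ = ‖star c * (c * star c * c)‖ := by
          congr 1; noncomm_ring
      _ ≤ ‖star c‖ * ‖c * star c * c‖ := norm_mul_le _ _
      _ = ‖c‖ * ‖c * star c * c‖ := by rw [norm_star]
  rw [h1] at h2
  have hpos : 0 < ‖c‖ := norm_pos_iff.mpr hc
  have h3 : ‖c‖ * ‖c‖ ^ 3 ≤ ‖c‖ * ‖c * star c * c‖ := by
    calc ‖c‖ * ‖c‖ ^ 3 = ‖c‖ ^ 4 := by ring
      _ ≤ _ := h2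
  exact le_of_mul_le_mul_left h3 hpos

variable (f : ∀ n, A n →L[ℂ] A n →L[ℂ] A n) (hf : ∀ n, ‖f n‖ ≤ 1)

theorem f_le (hf : ∀ n, ‖f n‖ ≤ 1) (n : ℕ) (x y : A n) : ‖f n x y‖ ≤ ‖x‖ * ‖y‖ := by
  calc ‖f n x y‖ ≤ ‖f n‖ * ‖x‖ * ‖y‖ := (f n).le_opNorm₂ _ _
    _ ≤ 1 * ‖x‖ * ‖y‖ := by gcongr; exact hf n
    _ = ‖x‖ * ‖y‖ := by ring

/-- The bilinear map on bounded sequences. -/
noncomputable def bilS (x y : S A) : S A :=
  ⟨fun n => f n (x.1 n) (y.1 n), by
    obtain ⟨C, hC⟩ := x.2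
    obtain ⟨D, hD⟩ := y.2
    refine ⟨C * D, fun n => (f_le f hf n _ _).trans ?_⟩
    exact mul_le_mul (hC n) (hD n) (norm_nonneg _) ((norm_nonneg _).trans (hC n))⟩

theorem bilS_congr {x x' y y' : S A} (hx : x - x' ∈ N A) (hy : y - y' ∈ N A) :
    bilS f hf x y - bilS f hf x' y' ∈ N A := by
  rw [mem_N] at *
  obtain ⟨C, hC⟩ := y.2
  obtain ⟨D, hD⟩ := x'.2
  have h := (Tendsto.mul_const C hx).add (Tendsto.const_mul D hy)
  rw [zero_mul, mul_zero, add_zero] at h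
  refine squeeze_zero (fun n => norm_nonneg _) (fun n => ?_) h
  have e : (bilS f hf x y - bilS f hf x' y').1 n
      = f n ((x - x').1 n) (y.1 n) + f n (x'.1 n) ((y - y').1 n) := by
    change f n (x.1 n) (y.1 n) - f n (x'.1 n) (y'.1 n)
      = f n (x.1 n - x'.1 n) (y.1 n) + f n (x'.1 n) (y.1 n - y'.1 n)
    simp
  rw [e]
  refine (norm_add_le _ _).trans (add_le_add ?_ ?_)
  · refine (f_le f hf n _ _).trans ?_
    exact mul_le_mul_of_nonneg_left (hC n) (norm_nonneg _)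
  · refine (f_le f hf n _ _).trans ?_
    exact mul_le_mul_of_nonneg_right (hD n) (norm_nonneg _)

include hf in
/-- The main consequence in the sequence algebra. -/
theorem seq_pow (hc : ∀ n, ∀ x y z : A n,
      x * f n y z - f n (x * y) z + f n x (y * z) - f n x y * z = 0)
    (ε : ℕ → ℝ) (hε : Tendsto ε atTop (𝓝 0)) (hd : ∀ n, ∀ x : A n, ‖f n x x‖ ≤ ε n * ‖x‖ ^ 2)
    (u z : S A) (m : ℕ) :
    Tendsto (fun n => ‖f n (u.1 n ^ (m + 1)) (z.1 n)
      - (m + 1) • (u.1 n ^ m * f n (u.1 n) (z.1 n))‖) atTop (𝓝 0) := by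
  have hsurj := Ideal.Quotient.mk_surjective (I := N A)
  have key := abs_pow (Ideal.Quotient.mk (N A)) hsurj (bilS f hf) ?_ ?_ ?_ ?_ ?_ ?_ ?_ u z m
  · rw [Ideal.Quotient.eq_zero_iff_mem, mem_N] at key
    exact key
  · intro x x' y y' hx hy
    rw [Ideal.Quotient.mk_eq_mk_iff_sub_mem] at hx hy ⊢
    exact bilS_congr f hf hx hy
  · intro x x' y
    apply Subtype.ext
    funext n
    change f n (x.1 n + x'.1 n) (y.1 n) = f n (x.1 n) (y.1 n) + f n (x'.1 n) (y.1 n)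
    simp
  · intro x y y'
    apply Subtype.ext
    funext n
    change f n (x.1 n) (y.1 n + y'.1 n) = f n (x.1 n) (y.1 n) + f n (x.1 n) (y'.1 n)
    simp
  · intro x y z
    apply Subtype.ext
    funext n
    exact hc n (x.1 n) (y.1 n) (z.1 n)
  · intro x
    rw [Ideal.Quotient.eq_zero_iff_mem, mem_N]
    obtain ⟨C, hC⟩ := x.2
    have h := Tendsto.mul_const (C ^ 2) (hε.abs)
    rw [abs_zero, zero_mul] at h
    refine squeeze_zero (fun n => norm_nonneg _) (fun n => ?_) h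
    refine (hd n (x.1 n)).trans ?_
    calc ε n * ‖x.1 n‖ ^ 2 ≤ |ε n| * ‖x.1 n‖ ^ 2 :=
          mul_le_mul_of_nonneg_right (le_abs_self _) (by positivity)
      _ ≤ |ε n| * C ^ 2 := by
          gcongr
          exact hC n
  · intro x hx
    rw [Ideal.Quotient.eq_zero_iff_mem, mem_N] at hx ⊢
    have h := Tendsto.mul_const (1 / 2 : ℝ) hx
    rw [zero_mul] at h
    refine h.congr (fun n => ?_)
    change ‖x.1 n + x.1 n‖ * (1 / 2) = ‖x.1 n‖
    rw [← two_smul ℝ, norm_smul]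
    norm_num
    ring
  · intro c hcw
    obtain ⟨C, hC⟩ := c.2
    let d : S A := ⟨fun n => star (c.1 n), C, fun n => by rw [norm_star]; exact hC n⟩
    have h := hcw d
    rw [Ideal.Quotient.eq_zero_iff_mem, mem_N] at h
    rw [Ideal.Quotient.eq_zero_iff_mem, mem_N]
    have h3 : Tendsto (fun n => ‖c.1 n‖ ^ 3) atTop (𝓝 0) :=
      squeeze_zero (fun n => by positivity) (fun n => cube_le (c.1 n)) h
    rw [Metric.tendsto_atTop] at h3 ⊢
    intro δ hδ
    obtain ⟨n0, hn0⟩ := h3 (δ ^ 3) (by positivity)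
    refine ⟨n0, fun n hn => ?_⟩
    have := hn0 n hn
    rw [Real.dist_eq, sub_zero, abs_of_nonneg (by positivity)] at this ⊢
    exact lt_of_pow_lt_pow_left₀ 3 hδ.le this

end

end Vale.Agent.P082
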