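import Vale.Agent.P082.Bim

/-!
# P082: 3-cocycles vanishing on the partial diagonal
-/

namespace Vale.Agent.P082

open MulOpposite

universe u

/-- Normalised additive 1-cochains. -/
structure X1 (A : Type u) [CStarAlgebra A] where
  /-- the underlying function -/
  fn : A → A
  add' : ∀ v w, fn (v + w) = fn v + fn w
  one' : fn 1 = 0

namespace X1

variable {A : Type u} [CStarAlgebra A]

@[ext] theorem ext {φ ψ : X1 A} (h : ∀ v, φ.fn v = ψ.fn v) : φ = ψ := by
  cases φ; cases ψ
  simp only [mk.injEq]
  funext v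
  exact h v

noncomputable instance : Add (X1 A) := ⟨fun φ ψ => ⟨fun v => φ.fn v + ψ.fn v,
  fun v w => by rw [φ.add', ψ.add']; abel, by rw [φ.one', ψ.one', add_zero]⟩⟩

noncomputable instance : Zero (X1 A) := ⟨⟨fun _ => 0, fun _ _ => by simp, rfl⟩⟩

noncomputable instance : Neg (X1 A) := ⟨fun φ => ⟨fun v => -φ.fn v,
  fun v w => by rw [φ.add']; abel, by rw [φ.one', neg_zero]⟩⟩

@[simp] theorem add_fn (φ ψ : X1 A) (v : A) : (φ + ψ).fn v = φ.fn v + ψ.fn v := rfl
@[simp] theorem zero_fn (v : A) : (0 : X1 A).fn v = 0 := rfl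
@[simp] theorem neg_fn (φ : X1 A) (v : A) : (-φ).fn v = -φ.fn v := rfl

noncomputable instance : AddCommGroup (X1 A) where
  add_assoc a b c := by ext v; simp [add_assoc]
  zero_add a := by ext v; simp
  add_zero a := by ext v; simp
  neg_add_cancel a := by ext v; simp
  add_comm a b := by ext v; simp [add_comm]
  nsmul := nsmulRec
  zsmul := zsmulRec

@[simp] theorem sub_fn (φ ψ : X1 A) (v : A) : (φ - ψ).fn v = φ.fn v - ψ.fn v := by
  rw [sub_eq_add_neg, add_fn, neg_fn, ← sub_eq_add_neg]

noncomputable instance : SMul A (X1 A) := ⟨fun a φ => ⟨fun v => a * φ.fn v,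
  fun v w => by rw [φ.add', mul_add], by rw [φ.one', mul_zero]⟩⟩

@[simp] theorem smul_fn (a : A) (φ : X1 A) (v : A) : (a • φ).fn v = a * φ.fn v := rfl

noncomputable instance : Module A (X1 A) where
  one_smul φ := by ext v; simp
  mul_smul a b φ := by ext v; simp [mul_assoc]
  smul_zero a := by ext v; simp
  smul_add a φ ψ := by ext v; simp [mul_add]
  add_smul a b φ := by ext v; simp [add_mul]
  zero_smul φ := by ext v; simp

noncomputable instance : SMul Aᵐᵒᵖ (X1 A) :=
  ⟨fun a φ => ⟨fun v => φ.fn (a.unop * v) - φ.fn a.unop * v,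
    fun v w => by rw [mul_add, φ.add', mul_add]; abel,
    by rw [mul_one, mul_one, sub_self]⟩⟩

@[simp] theorem op_smul_fn (a : Aᵐᵒᵖ) (φ : X1 A) (v : A) :
    (a • φ).fn v = φ.fn (a.unop * v) - φ.fn a.unop * v := rfl

theorem fn_zero (φ : X1 A) : φ.fn 0 = 0 := by
  have := φ.add' 0 0
  rw [add_zero] at this
  simpa using this

noncomputable instance : Module Aᵐᵒᵖ (X1 A) where
  one_smul φ := by ext v; simp [φ.one']
  mul_smul a b φ := by
    ext v
    simp only [op_smul_fn, unop_mul]
    noncomm_ring
  smul_zero a := by ext v; simp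
  smul_add a φ ψ := by ext v; simp only [op_smul_fn, add_fn]; noncomm_ring
  add_smul a b φ := by
    ext v
    simp only [op_smul_fn, add_fn, unop_add, add_mul, φ.add']
    abel
  zero_smul φ := by ext v; simp [fn_zero]

instance : SMulCommClass A Aᵐᵒᵖ (X1 A) := ⟨fun a b φ => by
  ext v
  simp only [op_smul_fn, smul_fn]
  noncomm_ring⟩

/-- Evaluation, a left module map. -/
noncomputable def ev (v : A) : X1 A →ₗ[A] A where
  toFun φ := φ.fn v
  map_add' _ _ := rfl
  map_smul' _ _ := rfl

end X1

section

variable {A : Type u} [CStarAlgebra A]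

/-- A 3-cocycle that vanishes when its first two arguments are equal is zero. -/
theorem three (hA : ∀ c : A, (∀ z u v, c * z * (u * v - v * u) = 0) → c = 0)
    (f : A → A → A → A)
    (h1 : ∀ x x' y z, f (x + x') y z = f x y z + f x' y z)
    (h2 : ∀ x y y' z, f x (y + y') z = f x y z + f x y' z)
    (h3 : ∀ x y z z', f x y (z + z') = f x y z + f x y z')
    (hc : ∀ x y z w, x * f y z w - f (x * y) z w + f x (y * z) w - f x y (z * w)
      + f x y z * w = 0)
    (ha : ∀ x z, f x x z = 0) (x y z : A) : f x y z = 0 := by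
  have l1 : ∀ z w, f 1 z w = 0 := by
    intro z w
    have := hc 1 1 z w
    simp only [one_mul, ha, zero_mul] at this
    simpa using this
  have l2 : ∀ y w, f y 1 w = 0 := by
    intro y w
    have h := ha (y + 1) w
    rw [h1, h2, h2, ha, ha, l1] at h
    simpa using h
  have l3 : ∀ x y, f x y 1 = 0 := by
    intro x y
    have := hc x y 1 1
    simp only [mul_one, l2, mul_zero] at this
    simpa using this
  have key := bimodule hA (X := X1 A)
    (fun ξ h => by
      ext v
      exact h (X1.ev v))
    (fun x y => ⟨f x y, h3 x y, l3 x y⟩)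
    (fun x x' y => by ext v; exact h1 x x' y v)
    (fun x y y' => by ext v; exact h2 x y y' v)
    (fun x y z => by
      ext v
      have := hc x y z v
      simp only [X1.sub_fn, X1.add_fn, X1.smul_fn, X1.op_smul_fn, unop_op, X1.zero_fn]
      linear_combination (norm := noncomm_ring) this)
    (fun x => by ext v; exact ha x v) x y
  exact congrArg (fun φ => X1.fn φ z) key

end

end Vale.Agent.P082
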