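import Vale.Agent.P082.Three
import Vale.Agent.P082.Defs3

/-!
# P082: degree three
-/

namespace Vale.Agent.P082

universe u

theorem degreeThree (A : Type u) [CStarAlgebra A] : DegreeThree A := by
  intro hA f h1 h2 h3 hc φ p1 p2 hd x y z
  have key := three hA (fun x y z => f x y z - cob3 A φ x y z)
    (fun x x' y z => by
      simp only [cob3, h1, p1, p2, add_mul, mul_add]
      abel)
    (fun x y y' z => by
      simp only [cob3, h2, p1, p2, add_mul, mul_add]
      abel)
    (fun x y z z' => by
      simp only [cob3, h3, p1, p2, add_mul, mul_add]
      abel)
    (fun x y z w => by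
      have := hc x y z w
      simp only [cob3]
      rw [show x * y * z = x * (y * z) from mul_assoc x y z,
        show y * z * w = y * (z * w) from mul_assoc y z w]
      linear_combination (norm := noncomm_ring) this)
    (fun x z => by rw [hd x z, sub_self]) x y z
  exact sub_eq_zero.mp key

end Vale.Agent.P082
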