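import Vale.Agent.P082.Seq

/-!
# P082: the universal norm estimate
-/

namespace Vale.Agent.P082

open Filter Topology

universe u

theorem norm_unitary_le {B : Type u} [CStarAlgebra B] {u : B} (hu : u ∈ unitary B) : ‖u‖ ≤ 1 := by
  rcases subsingleton_or_nontrivial B with h | h
  · have : u = 0 := Subsingleton.elim _ _
    rw [this, norm_zero]; norm_num
  · exact (CStarRing.norm_of_mem_unitary hu).le

theorem exists_unit {B : Type u} [CStarAlgebra B] (F : B →L[ℂ] B →L[ℂ] B) (hF : ‖F‖ = 1) :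
    ∃ u ∈ unitary B, ∃ z : B, ‖z‖ ≤ 1 ∧ 1 / 4 < ‖F u z‖ := by
  by_contra hcon
  push Not at hcon
  have h1 : ∀ u ∈ unitary B, ‖F u‖ ≤ 1 / 4 := by
    intro u hu
    refine ContinuousLinearMap.opNorm_le_of_unit_norm (by norm_num) fun z hz => ?_
    exact hcon u hu z hz.le
  have h2 : ‖F‖ ≤ 1 / 2 := by
    refine ContinuousLinearMap.opNorm_le_bound _ (by norm_num) fun x => ?_
    obtain ⟨u, c, hx, hc⟩ := CStarAlgebra.exists_sum_four_unitary x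
    have e : F x = ∑ i, c i • F (u i : B) := by
      conv_lhs => rw [hx]
      rw [map_sum]
      simp
    rw [e]
    calc ‖∑ i, c i • F (u i : B)‖ ≤ ∑ i : Fin 4, ‖c i • F (u i : B)‖ := norm_sum_le _ _
      _ ≤ ∑ i : Fin 4, ‖x‖ / 2 * (1 / 4) := by
          refine Finset.sum_le_sum fun i _ => ?_
          rw [norm_smul]
          exact mul_le_mul (hc i) (h1 _ (u i).2) (norm_nonneg _) (by positivity)
      _ = 1 / 2 * ‖x‖ := by
          rw [Finset.sum_const, Finset.card_univ, Fintype.card_fin]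
          simp only [nsmul_eq_mul]
          push_cast
          ring
  rw [hF] at h2
  norm_num at h2

theorem no_seq (A : ℕ → Type u) [∀ n, CStarAlgebra (A n)] (f : ∀ n, A n →L[ℂ] A n →L[ℂ] A n)
    (hf : ∀ n, ‖f n‖ = 1)
    (hc : ∀ n, ∀ x y z : A n,
      x * f n y z - f n (x * y) z + f n x (y * z) - f n x y * z = 0)
    (ε : ℕ → ℝ) (hε : Tendsto ε atTop (𝓝 0)) (hd : ∀ n, ∀ x : A n, ‖f n x x‖ ≤ ε n * ‖x‖ ^ 2) :
    False := by
  choose u hu z hz hlt using fun n => exists_unit (f n) (hf n)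
  let us : S A := ⟨u, 1, fun n => norm_unitary_le (hu n)⟩
  let zs : S A := ⟨z, 1, hz⟩
  have h := seq_pow f (fun n => (hf n).le) hc ε hε hd us zs 7
  rw [Metric.tendsto_atTop] at h
  obtain ⟨n, hn⟩ := h 1 one_pos
  have h1 := hn n le_rfl
  rw [Real.dist_eq, sub_zero, abs_of_nonneg (norm_nonneg _)] at h1
  have h2 : ‖f n (u n ^ (7 + 1)) (z n)‖ ≤ 1 := by
    refine (f_le f (fun n => (hf n).le) n _ _).trans ?_
    exact mul_le_one₀ (norm_unitary_le (pow_mem (hu n) _)) (norm_nonneg _) (hz n)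
  have h3 : ‖(7 + 1) • (u n ^ 7 * f n (u n) (z n))‖ = 8 * ‖f n (u n) (z n)‖ := by
    rw [← Nat.cast_smul_eq_nsmul ℂ, norm_smul, CStarRing.norm_mem_unitary_mul _ (pow_mem (hu n) 7)]
    norm_num
  have h4 : ‖(7 + 1) • (u n ^ 7 * f n (u n) (z n))‖
      ≤ ‖f n (u n ^ (7 + 1)) (z n)‖
        + ‖f n (u n ^ (7 + 1)) (z n) - (7 + 1) • (u n ^ 7 * f n (u n) (z n))‖ := by
    have := norm_sub_le (f n (u n ^ (7 + 1)) (z n))
      (f n (u n ^ (7 + 1)) (z n) - (7 + 1) • (u n ^ 7 * f n (u n) (z n)))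
    rwa [sub_sub_cancel] at this
  have h1' : ‖f n (u n ^ (7 + 1)) (z n) - (7 + 1) • (u n ^ 7 * f n (u n) (z n))‖ < 1 := h1
  rw [h3] at h4
  have := hlt n
  linarith

theorem norm_scale {B : Type u} [CStarAlgebra B] (f : B →L[ℂ] B →L[ℂ] B) (hf : 0 < ‖f‖) :
    ‖((‖f‖⁻¹ : ℝ) : ℂ) • f‖ = 1 := by
  have key : ∀ x, ‖(((‖f‖⁻¹ : ℝ) : ℂ) • f) x‖ = ‖f‖⁻¹ * ‖f x‖ := by
    intro x
    rw [smul_apply, norm_smul, Complex.norm_real, Real.norm_eq_abs, abs_of_pos (inv_pos.mpr hf)]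
  apply le_antisymm
  · refine ContinuousLinearMap.opNorm_le_bound _ zero_le_one fun x => ?_
    rw [key, inv_mul_le_iff₀ hf, one_mul]
    exact f.le_opNorm x
  · have h : ‖f‖ ≤ ‖f‖ * ‖((‖f‖⁻¹ : ℝ) : ℂ) • f‖ := by
      refine ContinuousLinearMap.opNorm_le_bound _ (by positivity) fun x => ?_
      have h1 := (((‖f‖⁻¹ : ℝ) : ℂ) • f).le_opNorm x
      rw [key, inv_mul_le_iff₀ hf] at h1
      rwa [mul_assoc]
    by_contra hlt
    push Not at hlt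
    nlinarith

theorem norm_scale_apply {B : Type u} [CStarAlgebra B] (f : B →L[ℂ] B →L[ℂ] B) (hf : 0 < ‖f‖)
    (x y : B) : ‖(((‖f‖⁻¹ : ℝ) : ℂ) • f) x y‖ = ‖f‖⁻¹ * ‖f x y‖ := by
  rw [smul_apply, smul_apply, norm_smul, Complex.norm_real, Real.norm_eq_abs,
    abs_of_pos (inv_pos.mpr hf)]

/-- There is a universal constant `C` with `‖f‖ ≤ C sup ‖f(x, x)‖` (unit ball) for all bounded
2-cocycles of all unital C*-algebras. -/
theorem universal : ∃ C : ℝ, 0 < C ∧ ∀ (B : Type u) [CStarAlgebra B] (f : B →L[ℂ] B →L[ℂ] B),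
    (∀ x y z, x * f y z - f (x * y) z + f x (y * z) - f x y * z = 0) →
    ∀ ε : ℝ, 0 ≤ ε → (∀ x, ‖f x x‖ ≤ ε * ‖x‖ ^ 2) → ‖f‖ ≤ C * ε := by
  by_contra hcon
  push Not at hcon
  have h : ∀ n : ℕ, ∃ (B : Type u) (_ : CStarAlgebra B) (f : B →L[ℂ] B →L[ℂ] B),
      (∀ x y z, x * f y z - f (x * y) z + f x (y * z) - f x y * z = 0) ∧
      ∃ ε : ℝ, 0 ≤ ε ∧ (∀ x, ‖f x x‖ ≤ ε * ‖x‖ ^ 2) ∧ ((n : ℝ) + 1) * ε < ‖f‖ := by
    intro n
    obtain ⟨B, inst, f, hc, ε, h0, hd, hlt⟩ := hcon (n + 1) (by positivity)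
    exact ⟨B, inst, f, hc, ε, h0, hd, hlt⟩
  choose B inst f hc ε h0 hd hlt using h
  have hpos : ∀ n, 0 < ‖f n‖ := fun n =>
    lt_of_le_of_lt (mul_nonneg (by positivity) (h0 n)) (hlt n)
  refine no_seq B (fun n => ((‖f n‖⁻¹ : ℝ) : ℂ) • f n) ?_ ?_ (fun n => 1 / ((n : ℝ) + 1))
    tendsto_one_div_add_atTop_nhds_zero_nat ?_
  · intro n
    exact norm_scale (f n) (hpos n)
  · intro n x y z
    have := hc n x y z
    have e : x * (((‖f n‖⁻¹ : ℝ) : ℂ) • f n) y z - (((‖f n‖⁻¹ : ℝ) : ℂ) • f n) (x * y) z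
        + (((‖f n‖⁻¹ : ℝ) : ℂ) • f n) x (y * z) - (((‖f n‖⁻¹ : ℝ) : ℂ) • f n) x y * z
        = ((‖f n‖⁻¹ : ℝ) : ℂ) • (x * f n y z - f n (x * y) z + f n x (y * z) - f n x y * z) := by
      simp only [smul_apply, smul_sub, smul_add, mul_smul_comm, smul_mul_assoc]
    rw [e, this, smul_zero]
  · intro n x
    rw [norm_scale_apply (f n) (hpos n)]
    have h1 : ‖f n‖⁻¹ * ε n ≤ 1 / ((n : ℝ) + 1) := by
      rw [inv_mul_le_iff₀ (hpos n), mul_one_div, le_div_iff₀ (by positivity), mul_comm]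
      exact (hlt n).le
    calc ‖f n‖⁻¹ * ‖f n x x‖ ≤ ‖f n‖⁻¹ * (ε n * ‖x‖ ^ 2) := by
          gcongr
          exact hd n x
      _ = (‖f n‖⁻¹ * ε n) * ‖x‖ ^ 2 := by ring
      _ ≤ 1 / ((n : ℝ) + 1) * ‖x‖ ^ 2 := by gcongr

end Vale.Agent.P082
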